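import Mathlib

/-!
Basic objects for the periodic hard-sphere Boltzmann problem: the phase space
`𝕋³ × ℝ³`, global Maxwellians, the total mass, momentum and energy of a density and the
relative entropy functional `H_M`.
-/

namespace Vale.Agent.Lib.P140

open MeasureTheory

/-- Velocity space `ℝ³` with its Euclidean norm and Lebesgue measure. -/
abbrev Vel : Type := EuclideanSpace ℝ (Fin 3)

/-- Phase space `Ω = 𝕋³ × ℝ³`; its `volume` is the product of the normalised Haar measure of
the torus `(ℝ/ℤ)³` and Lebesgue measure on `ℝ³`. -/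
abbrev Phase : Type := UnitAddTorus (Fin 3) × Vel

/-- The global (space-homogeneous) Maxwellian with density `ρ`, bulk velocity `u` and
temperature `θ`: `ρ (2πθ)^(-3/2) exp(-|v-u|²/(2θ))`. -/
noncomputable def maxwellian (ρ θ : ℝ) (u : Vel) (z : Phase) : ℝ :=
  ρ * (2 * Real.pi * θ) ^ (-(3 / 2 : ℝ)) * Real.exp (-‖z.2 - u‖ ^ 2 / (2 * θ))

/-- The standard Maxwellian `M = (2π)^(-3/2) exp(-|v|²/2)`. -/
noncomputable def stdMaxwellian (z : Phase) : ℝ := maxwellian 1 1 0 z

/-- Total mass `∫_Ω F`. -/
noncomputable def mass (F : Phase → ℝ) : ℝ := ∫ z, F z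

/-- Total momentum `∫_Ω v F` (a vector of `ℝ³`). -/
noncomputable def momentum (F : Phase → ℝ) : Vel := ∫ z, F z • z.2

/-- Total energy `∫_Ω |v|² F`. -/
noncomputable def energy (F : Phase → ℝ) : ℝ := ∫ z, ‖z.2‖ ^ 2 * F z

/-- The entropy of `F` relative to a reference density `N`: `∫_Ω (F log(F/N) - F + N)`
(with the convention `0 log 0 = 0`, which is how `Real.log` behaves). -/
noncomputable def relEntropyTo (N F : Phase → ℝ) : ℝ :=
  ∫ z, (F z * Real.log (F z / N z) - F z + N z)

/-- The relative entropy functional `H_M(F) = ∫_Ω (F log(F/M) - F + M)`. -/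
noncomputable def relEntropy (F : Phase → ℝ) : ℝ := relEntropyTo stdMaxwellian F

/-- A density at a fixed time: measurable, nonnegative, and with
`∫_Ω F (1 + |v|² + |log F|)` finite. -/
def Admissible (F : Phase → ℝ) : Prop :=
  AEStronglyMeasurable F volume ∧ (∀ z, 0 ≤ F z) ∧
    Integrable (fun z => F z * (1 + ‖z.2‖ ^ 2 + |Real.log (F z)|)) volume

/-- Equality almost everywhere on `Ω`. -/
def AeEq (F G : Phase → ℝ) : Prop := F =ᵐ[volume] G

end Vale.Agent.Lib.P140
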