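import Vale.Agent.Lib.P140.Defs

/-!
Relative entropy with respect to a global Maxwellian: pointwise facts and the
integral identity comparing it with `H_M`.
-/

namespace Vale.Agent.Lib.P140

open MeasureTheory

theorem maxwellian_pos {ρ θ : ℝ} (hρ : 0 < ρ) (hθ : 0 < θ) (u : Vel) (z : Phase) :
    0 < maxwellian ρ θ u z := by
  unfold maxwellian
  have h1 : 0 < (2 * Real.pi * θ) := by positivity
  positivity

theorem log_maxwellian {ρ θ : ℝ} (hρ : 0 < ρ) (hθ : 0 < θ) (u : Vel) (z : Phase) :
    Real.log (maxwellian ρ θ u z) =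
      Real.log ρ - 3 / 2 * Real.log (2 * Real.pi * θ) - ‖z.2 - u‖ ^ 2 / (2 * θ) := by
  unfold maxwellian
  have h1 : 0 < (2 * Real.pi * θ) := by positivity
  have h2 : 0 < (2 * Real.pi * θ) ^ (-(3 / 2 : ℝ)) := by positivity
  rw [Real.log_mul (by positivity) (by positivity), Real.log_mul hρ.ne' h2.ne',
    Real.log_rpow h1, Real.log_exp]
  ring

theorem integrable_gaussian_vel {θ : ℝ} (hθ : 0 < θ) (u : Vel) :
    Integrable (fun v : Vel => Real.exp (-‖v - u‖ ^ 2 / (2 * θ))) volume := by
  have hb : 0 < (((1 / (2 * θ) : ℝ)) : ℂ).re := by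
    rw [Complex.ofReal_re]; positivity
  have h := GaussianFourier.integrable_cexp_neg_mul_sq_norm_add (V := Vel) hb (0 : ℂ) (0 : Vel)
  have h2 : Integrable (fun v : Vel => Real.exp (-‖v‖ ^ 2 / (2 * θ))) volume := by
    have h3 := h.re
    refine h3.congr (Filter.Eventually.of_forall fun v => ?_)
    have hv : (-((1 / (2 * θ) : ℝ) : ℂ) * (‖v‖ : ℂ) ^ 2 + 0 * ((inner ℝ (0 : Vel) v : ℝ) : ℂ))
        = ((-‖v‖ ^ 2 / (2 * θ) : ℝ) : ℂ) := by
      push_cast; ring
    show RCLike.re (Complex.exp (-((1 / (2 * θ) : ℝ) : ℂ) * (‖v‖ : ℂ) ^ 2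
      + 0 * ((inner ℝ (0 : Vel) v : ℝ) : ℂ))) = Real.exp (-‖v‖ ^ 2 / (2 * θ))
    rw [hv, ← Complex.ofReal_exp]
    exact Complex.ofReal_re _
  exact h2.comp_sub_right u

theorem integrable_maxwellian (ρ : ℝ) {θ : ℝ} (hθ : 0 < θ) (u : Vel) :
    Integrable (maxwellian ρ θ u) (volume : Measure Phase) := by
  have h := ((integrable_gaussian_vel hθ u).const_mul
    (ρ * (2 * Real.pi * θ) ^ (-(3 / 2 : ℝ)))).comp_snd (volume : Measure (UnitAddTorus (Fin 3)))
  exact h

/-- Gibbs inequality, pointwise form. -/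
theorem relDensity_nonneg {a b : ℝ} (ha : 0 ≤ a) (hb : 0 < b) :
    0 ≤ a * Real.log (a / b) - a + b := by
  rcases ha.eq_or_lt with h0 | hpos
  · subst h0; simp; exact hb.le
  · have h1 : Real.log (b / a) ≤ b / a - 1 := Real.log_le_sub_one_of_pos (div_pos hb hpos)
    have h2 : Real.log (a / b) = -Real.log (b / a) := by
      rw [← Real.log_inv, inv_div]
    rw [h2]
    have h3 : a * (b / a - 1) = b - a := by field_simp
    nlinarith [mul_le_mul_of_nonneg_left h1 hpos.le]

/-- Equality case of the Gibbs inequality. -/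
theorem eq_of_relDensity_eq_zero {a b : ℝ} (ha : 0 ≤ a) (hb : 0 < b)
    (h : a * Real.log (a / b) - a + b = 0) : a = b := by
  rcases ha.eq_or_lt with h0 | hpos
  · subst h0; simp at h; exact absurd h hb.ne'
  · by_contra hne
    have hne' : b / a ≠ 1 := by
      intro h1
      rw [div_eq_one_iff_eq hpos.ne'] at h1
      exact hne h1.symm
    have h1 : Real.log (b / a) < b / a - 1 := Real.log_lt_sub_one_of_pos (div_pos hb hpos) hne'
    have h2 : Real.log (a / b) = -Real.log (b / a) := by
      rw [← Real.log_inv, inv_div]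
    rw [h2] at h
    have h3 : a * (b / a - 1) = b - a := by field_simp
    nlinarith [mul_lt_mul_of_pos_left h1 hpos]

/-- The constant term in `log (M / M_{ρ,u,θ})`. -/
noncomputable def cZero (ρ θ : ℝ) (u : Vel) : ℝ :=
  -Real.log ρ + 3 / 2 * (Real.log (2 * Real.pi * θ) - Real.log (2 * Real.pi)) + ‖u‖ ^ 2 / (2 * θ)

/-- The coefficient of `|v|²` in `log (M / M_{ρ,u,θ})`. -/
noncomputable def cTwo (θ : ℝ) : ℝ := 1 / (2 * θ) - 1 / 2

theorem relDensity_change {ρ θ : ℝ} (hρ : 0 < ρ) (hθ : 0 < θ) (u : Vel) {a : ℝ} (ha : 0 ≤ a)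
    (z : Phase) :
    a * Real.log (a / maxwellian ρ θ u z) - a + maxwellian ρ θ u z =
      (a * Real.log (a / stdMaxwellian z) - a + stdMaxwellian z) + cZero ρ θ u * a
        + cTwo θ * (‖z.2‖ ^ 2 * a) - 1 / θ * inner ℝ u (a • z.2)
        + (maxwellian ρ θ u z - stdMaxwellian z) := by
  rcases ha.eq_or_lt with h0 | hpos
  · subst h0; simp
  · have hM := maxwellian_pos hρ hθ u z
    have hS : 0 < stdMaxwellian z := maxwellian_pos one_pos one_pos 0 z
    rw [Real.log_div hpos.ne' hM.ne', Real.log_div hpos.ne' hS.ne', log_maxwellian hρ hθ]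
    unfold stdMaxwellian
    rw [log_maxwellian one_pos one_pos]
    rw [norm_sub_sq_real, real_inner_smul_right, real_inner_comm]
    unfold cZero cTwo
    simp only [Real.log_one, sub_zero, mul_one]
    field_simp
    ring

section Integral

variable {G : Phase → ℝ}

theorem integrable_mass (hm : AEStronglyMeasurable G volume) (h0 : ∀ z, 0 ≤ G z)
    (hi : Integrable (fun z => G z * (1 + ‖z.2‖ ^ 2 + |Real.log (G z)|)) volume) :
    Integrable G volume := by
  refine hi.mono' hm (Filter.Eventually.of_forall fun z => ?_)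
  rw [Real.norm_eq_abs, abs_of_nonneg (h0 z)]
  have h1 : 0 ≤ ‖z.2‖ ^ 2 + |Real.log (G z)| := by positivity
  nlinarith [h0 z, mul_nonneg (h0 z) h1]

theorem integrable_energy (hm : AEStronglyMeasurable G volume) (h0 : ∀ z, 0 ≤ G z)
    (hi : Integrable (fun z => G z * (1 + ‖z.2‖ ^ 2 + |Real.log (G z)|)) volume) :
    Integrable (fun z => ‖z.2‖ ^ 2 * G z) volume := by
  have hmeas : AEStronglyMeasurable (fun z : Phase => ‖z.2‖ ^ 2 * G z) volume :=
    ((continuous_snd.norm.pow 2).aestronglyMeasurable).mul hm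
  refine hi.mono' hmeas (Filter.Eventually.of_forall fun z => ?_)
  rw [Real.norm_eq_abs, abs_of_nonneg (mul_nonneg (by positivity) (h0 z))]
  have h1 : 0 ≤ 1 + |Real.log (G z)| := by positivity
  nlinarith [h0 z, mul_nonneg (h0 z) h1]

theorem integrable_mul_log (hm : AEStronglyMeasurable G volume) (h0 : ∀ z, 0 ≤ G z)
    (hi : Integrable (fun z => G z * (1 + ‖z.2‖ ^ 2 + |Real.log (G z)|)) volume) :
    Integrable (fun z => G z * Real.log (G z)) volume := by
  have hmeas : AEStronglyMeasurable (fun z : Phase => G z * Real.log (G z)) volume :=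
    hm.mul (Real.measurable_log.comp_aemeasurable hm.aemeasurable).aestronglyMeasurable
  refine hi.mono' hmeas (Filter.Eventually.of_forall fun z => ?_)
  rw [Real.norm_eq_abs, abs_mul, abs_of_nonneg (h0 z)]
  have h1 : 0 ≤ 1 + ‖z.2‖ ^ 2 := by positivity
  nlinarith [h0 z, mul_nonneg (h0 z) h1]

theorem integrable_momentum (hm : AEStronglyMeasurable G volume) (h0 : ∀ z, 0 ≤ G z)
    (hi : Integrable (fun z => G z * (1 + ‖z.2‖ ^ 2 + |Real.log (G z)|)) volume) :
    Integrable (fun z => G z • z.2) volume := by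
  have hmeas : AEStronglyMeasurable (fun z : Phase => G z • z.2) volume :=
    hm.smul continuous_snd.aestronglyMeasurable
  refine hi.mono' hmeas (Filter.Eventually.of_forall fun z => ?_)
  rw [norm_smul, Real.norm_eq_abs, abs_of_nonneg (h0 z)]
  have h1 : 0 ≤ |Real.log (G z)| := abs_nonneg _
  have h2 : ‖z.2‖ ≤ 1 + ‖z.2‖ ^ 2 := by nlinarith [sq_nonneg (‖z.2‖ - 1), norm_nonneg z.2]
  nlinarith [h0 z, mul_nonneg (h0 z) h1, mul_le_mul_of_nonneg_left h2 (h0 z)]

theorem relDensity_std (h0 : ∀ z, 0 ≤ G z) (z : Phase) :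
    G z * Real.log (G z / stdMaxwellian z) - G z + stdMaxwellian z =
      G z * Real.log (G z) + (3 / 2 * Real.log (2 * Real.pi) - 1) * G z
        + 1 / 2 * (‖z.2‖ ^ 2 * G z) + stdMaxwellian z := by
  rcases (h0 z).eq_or_lt with h | hpos
  · rw [← h]; simp
  · have hS : 0 < stdMaxwellian z := maxwellian_pos one_pos one_pos 0 z
    rw [Real.log_div hpos.ne' hS.ne']
    unfold stdMaxwellian
    rw [log_maxwellian one_pos one_pos]
    simp only [Real.log_one, sub_zero, mul_one]
    ring

theorem integrable_relDensity_std (hm : AEStronglyMeasurable G volume) (h0 : ∀ z, 0 ≤ G z)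
    (hi : Integrable (fun z => G z * (1 + ‖z.2‖ ^ 2 + |Real.log (G z)|)) volume) :
    Integrable (fun z => G z * Real.log (G z / stdMaxwellian z) - G z + stdMaxwellian z)
      volume := by
  have hS : Integrable stdMaxwellian (volume : Measure Phase) :=
    integrable_maxwellian 1 one_pos 0
  have h := (((integrable_mul_log hm h0 hi).add
    ((integrable_mass hm h0 hi).const_mul (3 / 2 * Real.log (2 * Real.pi) - 1))).add
    ((integrable_energy hm h0 hi).const_mul (1 / 2))).add hS
  refine h.congr (Filter.Eventually.of_forall fun z => ?_)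
  simp only [Pi.add_apply]
  rw [relDensity_std h0 z]

/-- The entropy of `G` relative to the Maxwellian `M_{ρ,u,θ}` in terms of `H_M(G)` and the
mass, momentum and energy of `G`. -/
theorem relEntropyTo_maxwellian {ρ θ : ℝ} (hρ : 0 < ρ) (hθ : 0 < θ) (u : Vel)
    (hG : Admissible G) :
    Integrable (fun z => G z * Real.log (G z / maxwellian ρ θ u z) - G z + maxwellian ρ θ u z)
      volume ∧
    relEntropyTo (maxwellian ρ θ u) G =
      relEntropy G + cZero ρ θ u * mass G + cTwo θ * energy G
        - 1 / θ * inner ℝ u (momentum G)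
        + (mass (maxwellian ρ θ u) - mass stdMaxwellian) := by
  obtain ⟨hm, h0, hi⟩ := hG
  have hS : Integrable stdMaxwellian (volume : Measure Phase) :=
    integrable_maxwellian 1 one_pos 0
  have hM : Integrable (maxwellian ρ θ u) (volume : Measure Phase) :=
    integrable_maxwellian ρ hθ u
  have h1 := integrable_relDensity_std hm h0 hi
  have h2 : Integrable (fun z => cZero ρ θ u * G z) volume :=
    (integrable_mass hm h0 hi).const_mul _
  have h3 : Integrable (fun z : Phase => cTwo θ * (‖z.2‖ ^ 2 * G z)) volume :=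
    (integrable_energy hm h0 hi).const_mul _
  have hV := integrable_momentum hm h0 hi
  have h4 : Integrable (fun z : Phase => 1 / θ * inner ℝ u (G z • z.2)) volume :=
    (hV.const_inner u).const_mul _
  have h5 : Integrable (fun z => maxwellian ρ θ u z - stdMaxwellian z) volume := hM.sub hS
  have hfun : (fun z => G z * Real.log (G z / maxwellian ρ θ u z) - G z + maxwellian ρ θ u z) =
      fun z => (G z * Real.log (G z / stdMaxwellian z) - G z + stdMaxwellian z)
        + cZero ρ θ u * G z + cTwo θ * (‖z.2‖ ^ 2 * G z) - 1 / θ * inner ℝ u (G z • z.2)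
        + (maxwellian ρ θ u z - stdMaxwellian z) := by
    funext z
    exact relDensity_change hρ hθ u (h0 z) z
  refine ⟨?_, ?_⟩
  · rw [hfun]
    exact (((h1.add h2).add h3).sub h4).add h5
  · unfold relEntropy relEntropyTo mass energy momentum
    rw [hfun]
    have e1 := integral_add (((h1.add h2).add h3).sub h4) h5
    have e2 := integral_sub ((h1.add h2).add h3) h4
    have e3 := integral_add (h1.add h2) h3
    have e4 := integral_add h1 h2
    have e5 : (∫ z, cZero ρ θ u * G z) = cZero ρ θ u * (∫ z, G z) := integral_const_mul _ _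
    have e6 : (∫ z : Phase, cTwo θ * (‖z.2‖ ^ 2 * G z)) = cTwo θ * (∫ z : Phase, ‖z.2‖ ^ 2 * G z) :=
      integral_const_mul _ _
    have e7 : (∫ z : Phase, 1 / θ * inner ℝ u (G z • z.2))
        = 1 / θ * inner ℝ u (∫ z : Phase, G z • z.2) := by
      rw [integral_const_mul, integral_inner hV u]
    have e8 := integral_sub hM hS
    simp only [Pi.add_apply, Pi.sub_apply] at e1 e2 e3 e4
    rw [e1, e2, e3, e4, e5, e6, e7, e8]

/-- The entropy relative to a Maxwellian is nonnegative and vanishes only for the Maxwellian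
itself (up to a null set). -/
theorem aeEq_of_relEntropyTo_nonpos {ρ θ : ℝ} (hρ : 0 < ρ) (hθ : 0 < θ) (u : Vel)
    (hG : Admissible G) (hle : relEntropyTo (maxwellian ρ θ u) G ≤ 0) :
    AeEq G (maxwellian ρ θ u) := by
  have hMpos : ∀ z, 0 < maxwellian ρ θ u z := fun z => maxwellian_pos hρ hθ u z
  obtain ⟨hint, -⟩ := relEntropyTo_maxwellian hρ hθ u hG
  have hnn : 0 ≤ fun z => G z * Real.log (G z / maxwellian ρ θ u z) - G z
      + maxwellian ρ θ u z :=
    fun z => relDensity_nonneg (hG.2.1 z) (hMpos z)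
  have h0 := (integral_eq_zero_iff_of_nonneg hnn hint).mp
    (le_antisymm hle (integral_nonneg hnn))
  unfold AeEq
  filter_upwards [h0] with z hz
  exact eq_of_relDensity_eq_zero (hG.2.1 z) (hMpos z) hz

/-- The entropy of (a density a.e. equal to) a Maxwellian relative to itself vanishes. -/
theorem relEntropyTo_self_of_aeEq {N : Phase → ℝ} (hG : AeEq G N) :
    relEntropyTo N G = 0 := by
  unfold relEntropyTo
  have h1 : (fun z => G z * Real.log (G z / N z) - G z + N z) =ᵐ[volume]
      fun _ => (0 : ℝ) := by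
    unfold AeEq at hG
    filter_upwards [hG] with z hz
    rw [hz]
    simp
  rw [integral_congr_ae h1]
  simp

/-- The basic estimate: for a Maxwellian datum, the entropy relative to the datum is at most
`(θ-1)/(2θ)` times the energy lost. -/
theorem relEntropyTo_le_energy_defect {ρ θ : ℝ} (hρ : 0 < ρ) (hθ : 0 < θ) (u : Vel)
    {G0 : Phase → ℝ} (hG : Admissible G) (hG0 : Admissible G0)
    (hinit : AeEq G0 (maxwellian ρ θ u))
    (h_mass : mass G = mass G0) (h_mom : momentum G = momentum G0)
    (h_entropy : relEntropy G ≤ relEntropy G0) :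
    relEntropyTo (maxwellian ρ θ u) G ≤ (θ - 1) / (2 * θ) * (energy G0 - energy G) := by
  obtain ⟨-, hval⟩ := relEntropyTo_maxwellian hρ hθ u hG
  obtain ⟨-, hval0⟩ := relEntropyTo_maxwellian hρ hθ u hG0
  have hzero := relEntropyTo_self_of_aeEq hinit
  have hc2 : -cTwo θ = (θ - 1) / (2 * θ) := by
    unfold cTwo
    field_simp
    ring
  rw [← hc2]
  have h3 : relEntropyTo (maxwellian ρ θ u) G =
      relEntropyTo (maxwellian ρ θ u) G - relEntropyTo (maxwellian ρ θ u) G0 := by
    rw [hzero, sub_zero]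
  rw [h3, hval, hval0, h_mass, h_mom]
  linarith

end Integral

end Vale.Agent.Lib.P140
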